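import Mathlib

/-!
# P154 q = 4, `T × T`, class `ps5 (23/10) (7/10)`: polynomial minorants of `1 / Z ^ j` on `0 < Z ≤ 4`

`lB1 .. lB4` are polynomials in `z = Z - 1`; `1 - lBj z * (1 + z) ^ j = z ^ r * g z` and `g ≥ 0` on `[-1, 3]` because on every interval of a partition
it is a combination of the products `(z - p) ^ i * (q - z) ^ (n - i)` with nonnegative coefficients.
-/

namespace Vale.Agent.P154.T4M

/-- minorant of `1 / Z ^ 1` on `0 < Z ≤ 4`, as a polynomial in `z = Z - 1` -/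
noncomputable def lB1 (z : ℝ) : ℝ :=
  1 + (-1) * z + 1 * z ^ 2 + (-1) * z ^ 3 + 983516607383 / 1000000000000 * z ^ 4 + (-3904686743 / 3906250000) * z ^ 5 + 188730588781 / 200000000000 * z ^ 6 + (-332915024343 / 500000000000) * z ^ 7 + 308652745943 / 1000000000000 * z ^ 8 + (-87311689421 / 1000000000000) * z ^ 9 + 13606875487 / 1000000000000 * z ^ 10 + (-178702659 / 200000000000) * z ^ 11

noncomputable def glB1 (z : ℝ) : ℝ :=
  16483392617 / 1000000000000 + 643327953 / 40000000000 * z + 55946862303 / 1000000000000 * z ^ 2 + (-277822895219 / 1000000000000) * z ^ 3 + 357177302743 / 1000000000000 * z ^ 4 + (-110670528261 / 500000000000) * z ^ 5 + 36852406967 / 500000000000 * z ^ 6 + (-794585137 / 62500000000) * z ^ 7 + 178702659 / 200000000000 * z ^ 8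

theorem lB1_split (z : ℝ) : 1 - lB1 z * (1 + z) ^ 1 = z ^ 4 * glB1 z := by
  unfold lB1 glB1
  ring

theorem glB1_nn0 (z : ℝ) (h1 : (-1) ≤ z) (h2 : z ≤ 0) : 0 ≤ glB1 z := by
  obtain ⟨u, hu⟩ : ∃ u : ℝ, u = z - (-1) := ⟨_, rfl⟩
  obtain ⟨v, hv⟩ : ∃ v : ℝ, v = 0 - z := ⟨_, rfl⟩
  have hu0 : 0 ≤ u := by rw [hu]; linarith
  have hv0 : 0 ≤ v := by rw [hv]; linarith
  have e : glB1 z = 1 * (u ^ 0 * v ^ 8) + 499616971209 / 125000000000 * (u ^ 1 * v ^ 7) + 1655502876161 / 250000000000 * (u ^ 2 * v ^ 6) + 5907374493421 / 1000000000000 * (u ^ 3 * v ^ 5) + 1588210118849 / 500000000000 * (u ^ 4 * v ^ 4) + 149853360033 / 125000000000 * (u ^ 5 * v ^ 3) + 101224865951 / 250000000000 * (u ^ 6 * v ^ 2) + 115783942111 / 1000000000000 * (u ^ 7 * v ^ 1) + 16483392617 / 1000000000000 * (u ^ 8 * v ^ 0) := by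
    rw [hu, hv]
    unfold glB1
    ring
  rw [e]
  positivity

theorem glB1_nn1 (z : ℝ) (h1 : 0 ≤ z) (h2 : z ≤ 1) : 0 ≤ glB1 z := by
  obtain ⟨u, hu⟩ : ∃ u : ℝ, u = z - 0 := ⟨_, rfl⟩
  obtain ⟨v, hv⟩ : ∃ v : ℝ, v = 1 - z := ⟨_, rfl⟩
  have hu0 : 0 ≤ u := by rw [hu]; linarith
  have hv0 : 0 ≤ v := by rw [hv]; linarith
  have e : glB1 z = 16483392617 / 1000000000000 * (u ^ 0 * v ^ 8) + 147950339761 / 1000000000000 * (u ^ 1 * v ^ 7) + 315032123677 / 500000000000 * (u ^ 2 * v ^ 6) + 329668860119 / 250000000000 * (u ^ 3 * v ^ 5) + 762007601629 / 500000000000 * (u ^ 4 * v ^ 4) + 1034058393747 / 1000000000000 * (u ^ 5 * v ^ 3) + 206500805891 / 500000000000 * (u ^ 6 * v ^ 2) + 22599634379 / 250000000000 * (u ^ 7 * v ^ 1) + 1051471223 / 125000000000 * (u ^ 8 * v ^ 0) := by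
    rw [hu, hv]
    unfold glB1
    ring
  rw [e]
  positivity

theorem glB1_nn2 (z : ℝ) (h1 : 1 ≤ z) (h2 : z ≤ 2) : 0 ≤ glB1 z := by
  obtain ⟨u, hu⟩ : ∃ u : ℝ, u = z - 1 := ⟨_, rfl⟩
  obtain ⟨v, hv⟩ : ∃ v : ℝ, v = 2 - z := ⟨_, rfl⟩
  have hu0 : 0 ≤ u := by rw [hu]; linarith
  have hv0 : 0 ≤ v := by rw [hv]; linarith
  have e : glB1 z = 1051471223 / 125000000000 * (u ^ 0 * v ^ 8) + 11047444757 / 250000000000 * (u ^ 1 * v ^ 7) + 44770151183 / 500000000000 * (u ^ 2 * v ^ 6) + 3878266381 / 40000000000 * (u ^ 3 * v ^ 5) + 18279906577 / 250000000000 * (u ^ 4 * v ^ 4) + 10519691199 / 250000000000 * (u ^ 5 * v ^ 3) + 8083026393 / 500000000000 * (u ^ 6 * v ^ 2) + 3433282231 / 1000000000000 * (u ^ 7 * v ^ 1) + 314247631 / 1000000000000 * (u ^ 8 * v ^ 0) := by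
    rw [hu, hv]
    unfold glB1
    ring
  rw [e]
  positivity

theorem glB1_nn3 (z : ℝ) (h1 : 2 ≤ z) (h2 : z ≤ 3) : 0 ≤ glB1 z := by
  obtain ⟨u, hu⟩ : ∃ u : ℝ, u = z - 2 := ⟨_, rfl⟩
  obtain ⟨v, hv⟩ : ∃ v : ℝ, v = 3 - z := ⟨_, rfl⟩
  have hu0 : 0 ≤ u := by rw [hu]; linarith
  have hv0 : 0 ≤ v := by rw [hv]; linarith
  have e : glB1 z = 314247631 / 1000000000000 * (u ^ 0 * v ^ 8) + 318935973 / 200000000000 * (u ^ 1 * v ^ 7) + 51497441 / 15625000000 * (u ^ 2 * v ^ 6) + 53763749 / 12500000000 * (u ^ 3 * v ^ 5) + 3233366887 / 250000000000 * (u ^ 4 * v ^ 4) + 31911910251 / 1000000000000 * (u ^ 5 * v ^ 3) + 1005904909 / 31250000000 * (u ^ 6 * v ^ 2) + 289491097 / 25000000000 * (u ^ 7 * v ^ 1) + 9677117 / 6250000000 * (u ^ 8 * v ^ 0) := by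
    rw [hu, hv]
    unfold glB1
    ring
  rw [e]
  positivity

theorem glB1_nn (z : ℝ) (h1 : -1 ≤ z) (h2 : z ≤ 3) : 0 ≤ glB1 z := by
  rcases le_total z (0) with h | h
  · exact glB1_nn0 z h1 h
  have hl := h
  clear h
  rcases le_total z (1) with h | h
  · exact glB1_nn1 z hl h
  have hl := h
  clear h
  rcases le_total z (2) with h | h
  · exact glB1_nn2 z hl h
  have hl := h
  clear h
  exact glB1_nn3 z hl h2

theorem lB1_le (Z : ℝ) (h0 : 0 < Z) (h4 : Z ≤ 4) : lB1 (Z - 1) * Z ^ 1 ≤ 1 := by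
  have h := lB1_split (Z - 1)
  have hg := glB1_nn (Z - 1) (by linarith) (by linarith)
  have hz : 0 ≤ (Z - 1) ^ 4 := Even.pow_nonneg (by decide) _
  have e : 1 + (Z - 1) = Z := by ring
  rw [e] at h
  have := mul_nonneg hz hg
  linarith

/-- minorant of `1 / Z ^ 2` on `0 < Z ≤ 4`, as a polynomial in `z = Z - 1` -/
noncomputable def lB2 (z : ℝ) : ℝ :=
  1 + (-2) * z + 3 * z ^ 2 + (-4) * z ^ 3 + 974164251929 / 200000000000 * z ^ 4 + (-349322699779 / 62500000000) * z ^ 5 + 1535348629101 / 200000000000 * z ^ 6 + (-2264697186983 / 200000000000) * z ^ 7 + 10597423332823 / 1000000000000 * z ^ 8 + (-5339268311623 / 1000000000000) * z ^ 9 + 167859091791 / 125000000000 * z ^ 10 + (-132918056279 / 1000000000000) * z ^ 11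

noncomputable def glB2 (z : ℝ) : ℝ :=
  25835748071 / 200000000000 + (-76239661413 / 500000000000) * z + (-684619006111 / 500000000000) * z ^ 2 + 1559162840369 / 1000000000000 * z ^ 3 + 2186402695751 / 500000000000 * z ^ 4 + (-1133023104777 / 250000000000) * z ^ 5 + (-252351888781 / 200000000000) * z ^ 6 + 1393220449623 / 500000000000 * z ^ 7 + (-107703662177 / 100000000000) * z ^ 8 + 132918056279 / 1000000000000 * z ^ 9

theorem lB2_split (z : ℝ) : 1 - lB2 z * (1 + z) ^ 2 = z ^ 4 * glB2 z := by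
  unfold lB2 glB2
  ring

theorem glB2_nn0 (z : ℝ) (h1 : (-1) ≤ z) (h2 : z ≤ (-1 / 2)) : 0 ≤ glB2 z := by
  obtain ⟨u, hu⟩ : ∃ u : ℝ, u = z - (-1) := ⟨_, rfl⟩
  obtain ⟨v, hv⟩ : ∃ v : ℝ, v = (-1 / 2) - z := ⟨_, rfl⟩
  have hu0 : 0 ≤ u := by rw [hu]; linarith
  have hv0 : 0 ≤ v := by rw [hv]; linarith
  have e : glB2 z = 512 * (u ^ 0 * v ^ 9) + 5632 * (u ^ 1 * v ^ 8) + 80563652014209 / 3906250000 * (u ^ 2 * v ^ 7) + 596769061379399 / 15625000000 * (u ^ 3 * v ^ 6) + 1284976403905479 / 31250000000 * (u ^ 4 * v ^ 5) + 422470233321663 / 15625000000 * (u ^ 5 * v ^ 4) + 1357661886988193 / 125000000000 * (u ^ 6 * v ^ 3) + 10001603053569 / 3906250000 * (u ^ 7 * v ^ 2) + 32579914314991 / 100000000000 * (u ^ 8 * v ^ 1) + 19041755142933 / 1000000000000 * (u ^ 9 * v ^ 0) := by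
    rw [hu, hv]
    unfold glB2
    ring
  rw [e]
  positivity

theorem glB2_nn1 (z : ℝ) (h1 : (-1 / 2) ≤ z) (h2 : z ≤ 0) : 0 ≤ glB2 z := by
  obtain ⟨u, hu⟩ : ∃ u : ℝ, u = z - (-1 / 2) := ⟨_, rfl⟩
  obtain ⟨v, hv⟩ : ∃ v : ℝ, v = 0 - z := ⟨_, rfl⟩
  have hu0 : 0 ≤ u := by rw [hu]; linarith
  have hv0 : 0 ≤ v := by rw [hv]; linarith
  have e : glB2 z = 19041755142933 / 1000000000000 * (u ^ 0 * v ^ 9) + 4238112355721 / 250000000000 * (u ^ 1 * v ^ 8) + 5602301993591 / 62500000000 * (u ^ 2 * v ^ 7) + 161375708918351 / 125000000000 * (u ^ 3 * v ^ 6) + 65737313791577 / 15625000000 * (u ^ 4 * v ^ 5) + 99690967731077 / 15625000000 * (u ^ 5 * v ^ 4) + 16631460532719 / 3125000000 * (u ^ 6 * v ^ 3) + 9836084882057 / 3906250000 * (u ^ 7 * v ^ 2) + 154856040576 / 244140625 * (u ^ 8 * v ^ 1) + 25835748071 / 390625000 * (u ^ 9 * v ^ 0) := by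
    rw [hu, hv]
    unfold glB2
    ring
  rw [e]
  positivity

theorem glB2_nn2 (z : ℝ) (h1 : 0 ≤ z) (h2 : z ≤ 1 / 2) : 0 ≤ glB2 z := by
  obtain ⟨u, hu⟩ : ∃ u : ℝ, u = z - 0 := ⟨_, rfl⟩
  obtain ⟨v, hv⟩ : ∃ v : ℝ, v = 1 / 2 - z := ⟨_, rfl⟩
  have hu0 : 0 ≤ u := by rw [hu]; linarith
  have hv0 : 0 ≤ v := by rw [hv]; linarith
  have e : glB2 z = 25835748071 / 390625000 * (u ^ 0 * v ^ 9) + 543184500891 / 976562500 * (u ^ 1 * v ^ 8) + 7396415716841 / 3906250000 * (u ^ 2 * v ^ 7) + 52120260031309 / 15625000000 * (u ^ 3 * v ^ 6) + 50090185189457 / 15625000000 * (u ^ 4 * v ^ 5) + 24857732010533 / 15625000000 * (u ^ 5 * v ^ 4) + 41308446122319 / 125000000000 * (u ^ 6 * v ^ 3) + 1544240503051 / 31250000000 * (u ^ 7 * v ^ 2) + 13577357318273 / 250000000000 * (u ^ 8 * v ^ 1) + 18075591318323 / 1000000000000 * (u ^ 9 * v ^ 0) := by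
    rw [hu, hv]
    unfold glB2
    ring
  rw [e]
  positivity

theorem glB2_nn3 (z : ℝ) (h1 : 1 / 2 ≤ z) (h2 : z ≤ 1) : 0 ≤ glB2 z := by
  obtain ⟨u, hu⟩ : ∃ u : ℝ, u = z - 1 / 2 := ⟨_, rfl⟩
  obtain ⟨v, hv⟩ : ∃ v : ℝ, v = 1 - z := ⟨_, rfl⟩
  have hu0 : 0 ≤ u := by rw [hu]; linarith
  have hv0 : 0 ≤ v := by rw [hv]; linarith
  have e : glB2 z = 18075591318323 / 1000000000000 * (u ^ 0 * v ^ 9) + 135525607228361 / 500000000000 * (u ^ 1 * v ^ 8) + 111459373597917 / 62500000000 * (u ^ 2 * v ^ 7) + 803186682964381 / 125000000000 * (u ^ 3 * v ^ 6) + 216968285570727 / 15625000000 * (u ^ 4 * v ^ 5) + 586429400401719 / 31250000000 * (u ^ 5 * v ^ 4) + 249612128437429 / 15625000000 * (u ^ 6 * v ^ 3) + 16247499280551 / 1953125000 * (u ^ 7 * v ^ 2) + 2362602533653 / 976562500 * (u ^ 8 * v ^ 1) + 14697502698 / 48828125 * (u ^ 9 * v ^ 0) := by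
    rw [hu, hv]
    unfold glB2
    ring
  rw [e]
  positivity

theorem glB2_nn4 (z : ℝ) (h1 : 1 ≤ z) (h2 : z ≤ 2) : 0 ≤ glB2 z := by
  obtain ⟨u, hu⟩ : ∃ u : ℝ, u = z - 1 := ⟨_, rfl⟩
  obtain ⟨v, hv⟩ : ∃ v : ℝ, v = 2 - z := ⟨_, rfl⟩
  have hu0 : 0 ≤ u := by rw [hu]; linarith
  have hv0 : 0 ≤ v := by rw [hv]; linarith
  have e : glB2 z = 7348751349 / 12500000000 * (u ^ 0 * v ^ 9) + 1605723194807 / 250000000000 * (u ^ 1 * v ^ 8) + 7164947214399 / 250000000000 * (u ^ 2 * v ^ 7) + 67031901969191 / 1000000000000 * (u ^ 3 * v ^ 6) + 87608922522729 / 1000000000000 * (u ^ 4 * v ^ 5) + 31488923108631 / 500000000000 * (u ^ 5 * v ^ 4) + 22917393749899 / 1000000000000 * (u ^ 6 * v ^ 3) + 907492415733 / 250000000000 * (u ^ 7 * v ^ 2) + 158687290829 / 1000000000000 * (u ^ 8 * v ^ 1) + 2999956639 / 1000000000000 * (u ^ 9 * v ^ 0) := by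
    rw [hu, hv]
    unfold glB2
    ring
  rw [e]
  positivity

theorem glB2_nn5 (z : ℝ) (h1 : 2 ≤ z) (h2 : z ≤ 17 / 8) : 0 ≤ glB2 z := by
  obtain ⟨u, hu⟩ : ∃ u : ℝ, u = z - 2 := ⟨_, rfl⟩
  obtain ⟨v, hv⟩ : ∃ v : ℝ, v = 17 / 8 - z := ⟨_, rfl⟩
  have hu0 : 0 ≤ u := by rw [hu]; linarith
  have hv0 : 0 ≤ v := by rw [hv]; linarith
  have e : glB2 z = 98302579146752 / 244140625 * (u ^ 0 * v ^ 9) + 69066094125056 / 48828125 * (u ^ 1 * v ^ 8) + 487607440674816 / 244140625 * (u ^ 2 * v ^ 7) + 1892688906268736 / 244140625 * (u ^ 3 * v ^ 6) + 8014313389082448 / 244140625 * (u ^ 4 * v ^ 5) + 16960324028417112 / 244140625 * (u ^ 5 * v ^ 4) + 156540598295635907 / 1953125000 * (u ^ 6 * v ^ 3) + 409697592246746787 / 7812500000 * (u ^ 7 * v ^ 2) + 23008813044213029 / 1250000000 * (u ^ 8 * v ^ 1) + 4327432932459111 / 1600000000 * (u ^ 9 * v ^ 0) := by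
    rw [hu, hv]
    unfold glB2
    ring
  rw [e]
  positivity

theorem glB2_nn6 (z : ℝ) (h1 : 17 / 8 ≤ z) (h2 : z ≤ 9 / 4) : 0 ≤ glB2 z := by
  obtain ⟨u, hu⟩ : ∃ u : ℝ, u = z - 17 / 8 := ⟨_, rfl⟩
  obtain ⟨v, hv⟩ : ∃ v : ℝ, v = 9 / 4 - z := ⟨_, rfl⟩
  have hu0 : 0 ≤ u := by rw [hu]; linarith
  have hv0 : 0 ≤ v := by rw [hv]; linarith
  have e : glB2 z = 4327432932459111 / 1600000000 * (u ^ 0 * v ^ 9) + 605531401095891511 / 20000000000 * (u ^ 1 * v ^ 8) + 9212340547686050471 / 62500000000 * (u ^ 2 * v ^ 7) + 2562259261563399247 / 6250000000 * (u ^ 3 * v ^ 6) + 22467483218173787449 / 31250000000 * (u ^ 4 * v ^ 5) + 12902144894153729993 / 15625000000 * (u ^ 5 * v ^ 4) + 2429596852303177707 / 3906250000 * (u ^ 6 * v ^ 3) + 23175721729819327 / 78125000 * (u ^ 7 * v ^ 2) + 317880403842002127 / 3906250000 * (u ^ 8 * v ^ 1) + 3824676469118939 / 390625000 * (u ^ 9 * v ^ 0) := by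
    rw [hu, hv]
    unfold glB2
    ring
  rw [e]
  positivity

theorem glB2_nn7 (z : ℝ) (h1 : 9 / 4 ≤ z) (h2 : z ≤ 5 / 2) : 0 ≤ glB2 z := by
  obtain ⟨u, hu⟩ : ∃ u : ℝ, u = z - 9 / 4 := ⟨_, rfl⟩
  obtain ⟨v, hv⟩ : ∃ v : ℝ, v = 5 / 2 - z := ⟨_, rfl⟩
  have hu0 : 0 ≤ u := by rw [hu]; linarith
  have hv0 : 0 ≤ v := by rw [hv]; linarith
  have e : glB2 z = 3824676469118939 / 200000000000 * (u ^ 0 * v ^ 9) + 99225459744527319 / 500000000000 * (u ^ 1 * v ^ 8) + 55276147546660177 / 62500000000 * (u ^ 2 * v ^ 7) + 69268675469753379 / 31250000000 * (u ^ 3 * v ^ 6) + 107266460190505829 / 31250000000 * (u ^ 4 * v ^ 5) + 52978351339704313 / 15625000000 * (u ^ 5 * v ^ 4) + 8290953924045473 / 3906250000 * (u ^ 6 * v ^ 3) + 62874399584831 / 78125000 * (u ^ 7 * v ^ 2) + 648894008488231 / 3906250000 * (u ^ 8 * v ^ 1) + 5552475737091 / 390625000 * (u ^ 9 * v ^ 0) := by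
    rw [hu, hv]
    unfold glB2
    ring
  rw [e]
  positivity

theorem glB2_nn8 (z : ℝ) (h1 : 5 / 2 ≤ z) (h2 : z ≤ 21 / 8) : 0 ≤ glB2 z := by
  obtain ⟨u, hu⟩ : ∃ u : ℝ, u = z - 5 / 2 := ⟨_, rfl⟩
  obtain ⟨v, hv⟩ : ∃ v : ℝ, v = 21 / 8 - z := ⟨_, rfl⟩
  have hu0 : 0 ≤ u := by rw [hu]; linarith
  have hv0 : 0 ≤ v := by rw [hv]; linarith
  have e : glB2 z = 355358447173824 / 48828125 * (u ^ 0 * v ^ 9) + 13604391048421424 / 244140625 * (u ^ 1 * v ^ 8) + 44482281309590768 / 244140625 * (u ^ 2 * v ^ 7) + 16108820174573396 / 48828125 * (u ^ 3 * v ^ 6) + 174913704688250809 / 488281250 * (u ^ 4 * v ^ 5) + 461000829531651601 / 1953125000 * (u ^ 5 * v ^ 4) + 360537570509948907 / 3906250000 * (u ^ 6 * v ^ 3) + 347317475920447601 / 15625000000 * (u ^ 7 * v ^ 2) + 1230507795713566359 / 250000000000 * (u ^ 8 * v ^ 1) + 1027115721349031027 / 1000000000000 * (u ^ 9 * v ^ 0) := by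
    rw [hu, hv]
    unfold glB2
    ring
  rw [e]
  positivity

theorem glB2_nn9 (z : ℝ) (h1 : 21 / 8 ≤ z) (h2 : z ≤ 11 / 4) : 0 ≤ glB2 z := by
  obtain ⟨u, hu⟩ : ∃ u : ℝ, u = z - 21 / 8 := ⟨_, rfl⟩
  obtain ⟨v, hv⟩ : ∃ v : ℝ, v = 11 / 4 - z := ⟨_, rfl⟩
  have hu0 : 0 ≤ u := by rw [hu]; linarith
  have hv0 : 0 ≤ v := by rw [hv]; linarith
  have e : glB2 z = 1027115721349031027 / 1000000000000 * (u ^ 0 * v ^ 9) + 271321036028565861 / 20000000000 * (u ^ 1 * v ^ 8) + 5711280212968804211 / 62500000000 * (u ^ 2 * v ^ 7) + 11182909770032664113 / 31250000000 * (u ^ 3 * v ^ 6) + 26913596343215766109 / 31250000000 * (u ^ 4 * v ^ 5) + 20575448892885002363 / 15625000000 * (u ^ 5 * v ^ 4) + 5027942092070580519 / 3906250000 * (u ^ 6 * v ^ 3) + 1525701172156019173 / 1953125000 * (u ^ 7 * v ^ 2) + 209951294265520303 / 781250000 * (u ^ 8 * v ^ 1) + 3134892245594653 / 78125000 * (u ^ 9 * v ^ 0) := by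
    rw [hu, hv]
    unfold glB2
    ring
  rw [e]
  positivity

theorem glB2_nn10 (z : ℝ) (h1 : 11 / 4 ≤ z) (h2 : z ≤ 3) : 0 ≤ glB2 z := by
  obtain ⟨u, hu⟩ : ∃ u : ℝ, u = z - 11 / 4 := ⟨_, rfl⟩
  obtain ⟨v, hv⟩ : ∃ v : ℝ, v = 3 - z := ⟨_, rfl⟩
  have hu0 : 0 ≤ u := by rw [hu]; linarith
  have hv0 : 0 ≤ v := by rw [hv]; linarith
  have e : glB2 z = 3134892245594653 / 40000000000 * (u ^ 0 * v ^ 9) + 53314789722439463 / 50000000000 * (u ^ 1 * v ^ 8) + 196914892689947801 / 31250000000 * (u ^ 2 * v ^ 7) + 332138900679445809 / 15625000000 * (u ^ 3 * v ^ 6) + 88291260005431493 / 1953125000 * (u ^ 4 * v ^ 5) + 61505910248714923 / 976562500 * (u ^ 5 * v ^ 4) + 14063227024880141 / 244140625 * (u ^ 6 * v ^ 3) + 8155932815062168 / 244140625 * (u ^ 7 * v ^ 2) + 2725702405645824 / 244140625 * (u ^ 8 * v ^ 1) + 400461604550656 / 244140625 * (u ^ 9 * v ^ 0) := by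
    rw [hu, hv]
    unfold glB2
    ring
  rw [e]
  positivity

theorem glB2_nn (z : ℝ) (h1 : -1 ≤ z) (h2 : z ≤ 3) : 0 ≤ glB2 z := by
  rcases le_total z ((-1 / 2)) with h | h
  · exact glB2_nn0 z h1 h
  have hl := h
  clear h
  rcases le_total z (0) with h | h
  · exact glB2_nn1 z hl h
  have hl := h
  clear h
  rcases le_total z (1 / 2) with h | h
  · exact glB2_nn2 z hl h
  have hl := h
  clear h
  rcases le_total z (1) with h | h
  · exact glB2_nn3 z hl h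
  have hl := h
  clear h
  rcases le_total z (2) with h | h
  · exact glB2_nn4 z hl h
  have hl := h
  clear h
  rcases le_total z (17 / 8) with h | h
  · exact glB2_nn5 z hl h
  have hl := h
  clear h
  rcases le_total z (9 / 4) with h | h
  · exact glB2_nn6 z hl h
  have hl := h
  clear h
  rcases le_total z (5 / 2) with h | h
  · exact glB2_nn7 z hl h
  have hl := h
  clear h
  rcases le_total z (21 / 8) with h | h
  · exact glB2_nn8 z hl h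
  have hl := h
  clear h
  rcases le_total z (11 / 4) with h | h
  · exact glB2_nn9 z hl h
  have hl := h
  clear h
  exact glB2_nn10 z hl h2

theorem lB2_le (Z : ℝ) (h0 : 0 < Z) (h4 : Z ≤ 4) : lB2 (Z - 1) * Z ^ 2 ≤ 1 := by
  have h := lB2_split (Z - 1)
  have hg := glB2_nn (Z - 1) (by linarith) (by linarith)
  have hz : 0 ≤ (Z - 1) ^ 4 := Even.pow_nonneg (by decide) _
  have e : 1 + (Z - 1) = Z := by ring
  rw [e] at h
  have := mul_nonneg hz hg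
  linarith

/-- minorant of `1 / Z ^ 3` on `0 < Z ≤ 4`, as a polynomial in `z = Z - 1` -/
noncomputable def lB3 (z : ℝ) : ℝ :=
  1 + (-3) * z + 5934353468467 / 1000000000000 * z ^ 2 + (-35987413499 / 3906250000) * z ^ 3 + 2693804307191 / 250000000000 * z ^ 4 + (-8772053008753 / 1000000000000) * z ^ 5 + 187746960323 / 40000000000 * z ^ 6 + (-1567298612951 / 1000000000000) * z ^ 7 + 147878571443 / 500000000000 * z ^ 8 + (-21374806241 / 1000000000000) * z ^ 9 + (-381986373 / 200000000000) * z ^ 10 + 345468459 / 1000000000000 * z ^ 11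

noncomputable def glB3 (z : ℝ) : ℝ :=
  65646531533 / 1000000000000 + (-590282549657 / 1000000000000) * z + 2060055933067 / 1000000000000 * z ^ 2 + (-924809289387 / 500000000000) * z ^ 3 + (-372597203091 / 250000000000) * z ^ 4 + 3027218386221 / 1000000000000 * z ^ 5 + (-180566063901 / 200000000000) * z ^ 6 + (-857674791639 / 1000000000000) * z ^ 7 + 746061534881 / 1000000000000 * z ^ 8 + (-226248397027 / 1000000000000) * z ^ 9 + 26068196459 / 1000000000000 * z ^ 10 + 109190811 / 125000000000 * z ^ 11 + (-345468459 / 1000000000000) * z ^ 12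

theorem lB3_split (z : ℝ) : 1 - lB3 z * (1 + z) ^ 3 = z ^ 2 * glB3 z := by
  unfold lB3 glB3
  ring

theorem glB3_nn0 (z : ℝ) (h1 : (-1) ≤ z) (h2 : z ≤ 0) : 0 ≤ glB3 z := by
  obtain ⟨u, hu⟩ : ∃ u : ℝ, u = z - (-1) := ⟨_, rfl⟩
  obtain ⟨v, hv⟩ : ∃ v : ℝ, v = 0 - z := ⟨_, rfl⟩
  have hu0 : 0 ≤ u := by rw [hu]; linarith
  have hv0 : 0 ≤ v := by rw [hv]; linarith
  have e : glB3 z = 1 * (u ^ 0 * v ^ 12) + 14 * (u ^ 1 * v ^ 11) + 91 * (u ^ 2 * v ^ 10) + 318729749268443 / 1000000000000 * (u ^ 3 * v ^ 9) + 26966563267301 / 40000000000 * (u ^ 4 * v ^ 8) + 462647980122831 / 500000000000 * (u ^ 5 * v ^ 7) + 214380848467467 / 250000000000 * (u ^ 6 * v ^ 6) + 545627946279717 / 1000000000000 * (u ^ 7 * v ^ 5) + 237750349186857 / 1000000000000 * (u ^ 8 * v ^ 4) + 69357955077839 / 1000000000000 * (u ^ 9 * v ^ 3) + 1610729382559 / 125000000000 * (u ^ 10 * v ^ 2) + 1378040928053 / 1000000000000 *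 (u ^ 11 * v ^ 1) + 65646531533 / 1000000000000 * (u ^ 12 * v ^ 0) := by
    rw [hu, hv]
    unfold glB3
    ring
  rw [e]
  positivity

theorem glB3_nn1 (z : ℝ) (h1 : 0 ≤ z) (h2 : z ≤ 1 / 2) : 0 ≤ glB3 z := by
  obtain ⟨u, hu⟩ : ∃ u : ℝ, u = z - 0 := ⟨_, rfl⟩
  obtain ⟨v, hv⟩ : ∃ v : ℝ, v = 1 / 2 - z := ⟨_, rfl⟩
  have hu0 : 0 ≤ u := by rw [hu]; linarith
  have hv0 : 0 ≤ v := by rw [hv]; linarith
  have e : glB3 z = 65646531533 / 244140625 * (u ^ 0 * v ^ 12) + 197046841427 / 97656250 * (u ^ 1 * v ^ 11) + 256180966613 / 39062500 * (u ^ 2 * v ^ 10) + 12513617328053 / 976562500 * (u ^ 3 * v ^ 9) + 19193527228971 / 976562500 * (u ^ 4 * v ^ 8) + 237543450772653 / 7812500000 * (u ^ 5 * v ^ 7) + 708735004878213 / 15625000000 * (u ^ 6 * v ^ 6) + 1659868859752929 / 31250000000 * (u ^ 7 * v ^ 5) + 2731068381896183 / 62500000000 * (u ^ 8 * v ^ 4) + 3011248012408669 / 125000000000 * (u ^ 9 * v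 ^ 3) + 423579065029949 / 50000000000 * (u ^ 10 * v ^ 2) + 53730882161293 / 31250000000 * (u ^ 11 * v ^ 1) + 153432450032521 / 1000000000000 * (u ^ 12 * v ^ 0) := by
    rw [hu, hv]
    unfold glB3
    ring
  rw [e]
  positivity

theorem glB3_nn2 (z : ℝ) (h1 : 1 / 2 ≤ z) (h2 : z ≤ 1) : 0 ≤ glB3 z := by
  obtain ⟨u, hu⟩ : ∃ u : ℝ, u = z - 1 / 2 := ⟨_, rfl⟩
  obtain ⟨v, hv⟩ : ∃ v : ℝ, v = 1 - z := ⟨_, rfl⟩
  have hu0 : 0 ≤ u := by rw [hu]; linarith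
  have hv0 : 0 ≤ v := by rw [hv]; linarith
  have e : glB3 z = 153432450032521 / 1000000000000 * (u ^ 0 * v ^ 12) + 245373821452391 / 125000000000 * (u ^ 1 * v ^ 11) + 2787801766908563 / 250000000000 * (u ^ 2 * v ^ 10) + 4639667944305561 / 125000000000 * (u ^ 3 * v ^ 9) + 2517329881120531 / 31250000000 * (u ^ 4 * v ^ 8) + 3750631380803443 / 31250000000 * (u ^ 5 * v ^ 7) + 491413953147659 / 3906250000 * (u ^ 6 * v ^ 6) + 364820886796793 / 3906250000 * (u ^ 7 * v ^ 5) + 2377903025389 / 48828125 * (u ^ 8 * v ^ 4) + 33970162661197 / 1953125000 * (u ^ 9 * v ^ 3) + 1976631327789 / 488281250 * (u ^ 10 * v ^ 2) + 27163794582 / 48828125 * (u ^ 11 * v ^ 1) + 8535191224 / 244140625 * (u ^ 12 * v ^ 0) := by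
    rw [hu, hv]
    unfold glB3
    ring
  rw [e]
  positivity

theorem glB3_nn3 (z : ℝ) (h1 : 1 ≤ z) (h2 : z ≤ 2) : 0 ≤ glB3 z := by
  obtain ⟨u, hu⟩ : ∃ u : ℝ, u = z - 1 := ⟨_, rfl⟩
  obtain ⟨v, hv⟩ : ∃ v : ℝ, v = 2 - z := ⟨_, rfl⟩
  have hu0 : 0 ≤ u := by rw [hu]; linarith
  have hv0 : 0 ≤ v := by rw [hv]; linarith
  have e : glB3 z = 1066898903 / 125000000000 * (u ^ 0 * v ^ 12) + 8907234561 / 250000000000 * (u ^ 1 * v ^ 11) + 29557015287 / 500000000000 * (u ^ 2 * v ^ 10) + 865969695803 / 1000000000000 * (u ^ 3 * v ^ 9) + 6180669186071 / 1000000000000 * (u ^ 4 * v ^ 8) + 1993680743573 / 100000000000 * (u ^ 5 * v ^ 7) + 17968728523969 / 500000000000 * (u ^ 6 * v ^ 6) + 39261828062453 / 1000000000000 * (u ^ 7 * v ^ 5) + 26475586819661 / 1000000000000 * (u ^ 8 * v ^ 4) + 10720092726171 / 1000000000000 * (u ^ 9 * v ^ 3) + 600330957899 / 250000000000 * (u ^ 10 * v ^ 2) + 252665099641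 / 1000000000000 * (u ^ 11 * v ^ 1) + 9960382519 / 1000000000000 * (u ^ 12 * v ^ 0) := by
    rw [hu, hv]
    unfold glB3
    ring
  rw [e]
  positivity

theorem glB3_nn4 (z : ℝ) (h1 : 2 ≤ z) (h2 : z ≤ 17 / 8) : 0 ≤ glB3 z := by
  obtain ⟨u, hu⟩ : ∃ u : ℝ, u = z - 2 := ⟨_, rfl⟩
  obtain ⟨v, hv⟩ : ∃ v : ℝ, v = 17 / 8 - z := ⟨_, rfl⟩
  have hu0 : 0 ≤ u := by rw [hu]; linarith
  have hv0 : 0 ≤ v := by rw [hv]; linarith
  have e : glB3 z = 167107488963887104 / 244140625 * (u ^ 0 * v ^ 12) + 1726073981970153472 / 244140625 * (u ^ 1 * v ^ 11) + 8030960723875856384 / 244140625 * (u ^ 2 * v ^ 10) + 22191216447128666112 / 244140625 * (u ^ 3 * v ^ 9) + 323336157164118016 / 1953125 * (u ^ 4 * v ^ 8) + 10182400871256842752 / 48828125 * (u ^ 5 * v ^ 7) + 45306685571208908096 / 244140625 * (u ^ 6 * v ^ 6) + 1146115952608561928 / 9765625 * (u ^ 7 * v ^ 5) + 12870714911970599807 / 244140625 * (u ^ 8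 * v ^ 4) + 33080611495853769433 / 1953125000 * (u ^ 9 * v ^ 3) + 2510643427652418483 / 625000000 * (u ^ 10 * v ^ 2) + 2226583252268199 / 3125000 * (u ^ 11 * v ^ 1) + 4722110942790829 / 64000000 * (u ^ 12 * v ^ 0) := by
    rw [hu, hv]
    unfold glB3
    ring
  rw [e]
  positivity

theorem glB3_nn5 (z : ℝ) (h1 : 17 / 8 ≤ z) (h2 : z ≤ 9 / 4) : 0 ≤ glB3 z := by
  obtain ⟨u, hu⟩ : ∃ u : ℝ, u = z - 17 / 8 := ⟨_, rfl⟩
  obtain ⟨v, hv⟩ : ∃ v : ℝ, v = 9 / 4 - z := ⟨_, rfl⟩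
  have hu0 : 0 ≤ u := by rw [hu]; linarith
  have hv0 : 0 ≤ v := by rw [hv]; linarith
  have e : glB3 z = 4722110942790829 / 64000000 * (u ^ 0 * v ^ 12) + 211656992564147439 / 200000000 * (u ^ 1 * v ^ 11) + 39102955136439591189 / 5000000000 * (u ^ 2 * v ^ 10) + 1140934580189589043947 / 31250000000 * (u ^ 3 * v ^ 9) + 7172831456863599498059 / 62500000000 * (u ^ 4 * v ^ 8) + 982166991189124290063 / 3906250000 * (u ^ 5 * v ^ 7) + 1530759569275363513803 / 3906250000 * (u ^ 6 * v ^ 6) + 427756924603563539223 / 976562500 * (u ^ 7 * v ^ 5) + 1364372219662792919163 / 3906250000 * (u ^ 8 * v ^ 4) + 94858395073298863907 / 488281250 * (u ^ 9 * v ^ 3) + 35017431641335990701 / 488281250 * (u ^ 10 * v ^ 2) + 3859865405411673166 / 244140625 * (u ^ 11 * v ^ 1) + 384989889605380229 / 244140625 * (u ^ 12 * v ^ 0) := by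
    rw [hu, hv]
    unfold glB3
    ring
  rw [e]
  positivity

theorem glB3_nn6 (z : ℝ) (h1 : 9 / 4 ≤ z) (h2 : z ≤ 5 / 2) : 0 ≤ glB3 z := by
  obtain ⟨u, hu⟩ : ∃ u : ℝ, u = z - 9 / 4 := ⟨_, rfl⟩
  obtain ⟨v, hv⟩ : ∃ v : ℝ, v = 5 / 2 - z := ⟨_, rfl⟩
  have hu0 : 0 ≤ u := by rw [hu]; linarith
  have hv0 : 0 ≤ v := by rw [hv]; linarith
  have e : glB3 z = 384989889605380229 / 1000000000000 * (u ^ 0 * v ^ 12) + 767488151871292739 / 125000000000 * (u ^ 1 * v ^ 11) + 5495967618887176059 / 125000000000 * (u ^ 2 * v ^ 10) + 5849547221417691011 / 31250000000 * (u ^ 3 * v ^ 9) + 33034627671148778607 / 62500000000 * (u ^ 4 * v ^ 8) + 163213205707097463 / 156250000 * (u ^ 5 * v ^ 7) + 5795660557584401577 / 3906250000 * (u ^ 6 * v ^ 6) + 1492262514231203499 / 976562500 * (u ^ 7 * v ^ 5) + 885757795143524407 / 781250000 * (u ^ 8 * v ^ 4) + 288828865537724607 / 488281250 * (u ^ 9 * v ^ 3) + 100651097374767651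 / 488281250 * (u ^ 10 * v ^ 2) + 10523011951299534 / 244140625 * (u ^ 11 * v ^ 1) + 998832872076313 / 244140625 * (u ^ 12 * v ^ 0) := by
    rw [hu, hv]
    unfold glB3
    ring
  rw [e]
  positivity

theorem glB3_nn7 (z : ℝ) (h1 : 5 / 2 ≤ z) (h2 : z ≤ 3) : 0 ≤ glB3 z := by
  obtain ⟨u, hu⟩ : ∃ u : ℝ, u = z - 5 / 2 := ⟨_, rfl⟩
  obtain ⟨v, hv⟩ : ∃ v : ℝ, v = 3 - z := ⟨_, rfl⟩
  have hu0 : 0 ≤ u := by rw [hu]; linarith
  have hv0 : 0 ≤ v := by rw [hv]; linarith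
  have e : glB3 z = 998832872076313 / 1000000000000 * (u ^ 0 * v ^ 12) + 74559797460741 / 5000000000 * (u ^ 1 * v ^ 11) + 5004506598854799 / 50000000000 * (u ^ 2 * v ^ 10) + 49879476085240149 / 125000000000 * (u ^ 3 * v ^ 9) + 4104796449320639 / 3906250000 * (u ^ 4 * v ^ 8) + 60028027088199867 / 31250000000 * (u ^ 5 * v ^ 7) + 19446360168931149 / 7812500000 * (u ^ 6 * v ^ 6) + 8938181444944503 / 3906250000 * (u ^ 7 * v ^ 5) + 1429086112999047 / 976562500 * (u ^ 8 * v ^ 4) + 1211953007844821 / 1953125000 * (u ^ 9 * v ^ 3) + 7671317258901 / 48828125 * (u ^ 10 * v ^ 2) + 4395736593016 / 244140625 * (u ^ 11 * v ^ 1) + 60299456 / 244140625 * (u ^ 12 * v ^ 0) := by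
    rw [hu, hv]
    unfold glB3
    ring
  rw [e]
  positivity

theorem glB3_nn (z : ℝ) (h1 : -1 ≤ z) (h2 : z ≤ 3) : 0 ≤ glB3 z := by
  rcases le_total z (0) with h | h
  · exact glB3_nn0 z h1 h
  have hl := h
  clear h
  rcases le_total z (1 / 2) with h | h
  · exact glB3_nn1 z hl h
  have hl := h
  clear h
  rcases le_total z (1) with h | h
  · exact glB3_nn2 z hl h
  have hl := h
  clear h
  rcases le_total z (2) with h | h
  · exact glB3_nn3 z hl h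
  have hl := h
  clear h
  rcases le_total z (17 / 8) with h | h
  · exact glB3_nn4 z hl h
  have hl := h
  clear h
  rcases le_total z (9 / 4) with h | h
  · exact glB3_nn5 z hl h
  have hl := h
  clear h
  rcases le_total z (5 / 2) with h | h
  · exact glB3_nn6 z hl h
  have hl := h
  clear h
  exact glB3_nn7 z hl h2

theorem lB3_le (Z : ℝ) (h0 : 0 < Z) (h4 : Z ≤ 4) : lB3 (Z - 1) * Z ^ 3 ≤ 1 := by
  have h := lB3_split (Z - 1)
  have hg := glB3_nn (Z - 1) (by linarith) (by linarith)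
  have hz : 0 ≤ (Z - 1) ^ 2 := Even.pow_nonneg (by decide) _
  have e : 1 + (Z - 1) = Z := by ring
  rw [e] at h
  have := mul_nonneg hz hg
  linarith

/-- minorant of `1 / Z ^ 4` on `0 < Z ≤ 4`, as a polynomial in `z = Z - 1` -/
noncomputable def lB4 (z : ℝ) : ℝ :=
  1 + (-4) * z + 9542188921349 / 1000000000000 * z ^ 2 + (-15053406411607 / 1000000000000) * z ^ 3 + 273538711079 / 20000000000 * z ^ 4 + (-2788813326311 / 500000000000) * z ^ 5 + (-96757749103 / 1000000000000) * z ^ 6 + 135538575141 / 250000000000 * z ^ 7 + 60031704979 / 500000000000 * z ^ 8 + (-25870061967 / 200000000000) * z ^ 9 + 10349103301 / 500000000000 * z ^ 10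

noncomputable def glB4 (z : ℝ) : ℝ :=
  457811078651 / 1000000000000 + (-3115349273789 / 1000000000000) * z + 133861142637 / 31250000000 * z ^ 2 + 1755391805267 / 250000000000 * z ^ 3 + (-898291223903 / 100000000000) * z ^ 4 + (-6343699192613 / 1000000000000) * z ^ 5 + 3462718469471 / 500000000000 * z ^ 6 + 2360828515653 / 1000000000000 * z ^ 7 + (-2295536880163 / 1000000000000) * z ^ 8 + (-164549453897 / 500000000000) * z ^ 9 + 27314858977 / 100000000000 * z ^ 10 + 46557483427 / 1000000000000 * z ^ 11 + (-10349103301 / 500000000000) * z ^ 12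

theorem lB4_split (z : ℝ) : 1 - lB4 z * (1 + z) ^ 4 = z ^ 2 * glB4 z := by
  unfold lB4 glB4
  ring

theorem glB4_nn0 (z : ℝ) (h1 : (-1) ≤ z) (h2 : z ≤ 0) : 0 ≤ glB4 z := by
  obtain ⟨u, hu⟩ : ∃ u : ℝ, u = z - (-1) := ⟨_, rfl⟩
  obtain ⟨v, hv⟩ : ∃ v : ℝ, v = 0 - z := ⟨_, rfl⟩
  have hu0 : 0 ≤ u := by rw [hu]; linarith
  have hv0 : 0 ≤ v := by rw [hv]; linarith
  have e : glB4 z = 1 * (u ^ 0 * v ^ 12) + 14 * (u ^ 1 * v ^ 11) + 91 * (u ^ 2 * v ^ 10) + 364 * (u ^ 3 * v ^ 9) + 14883103790371 / 15625000000 * (u ^ 4 * v ^ 8) + 832991456964751 / 500000000000 * (u ^ 5 * v ^ 7) + 1971853821709363 / 1000000000000 * (u ^ 6 * v ^ 6) + 1586382403689967 / 1000000000000 * (u ^ 7 * v ^ 5) + 215308035569017 / 250000000000 * (u ^ 8 * v ^ 4) + 307876645784387 / 1000000000000 * (u ^ 9 * v ^ 3) + 68767929767029 / 1000000000000 * (u ^ 10 * v ^ 2) + 8609082217601 / 1000000000000 * (u ^ 11 * v ^ 1) + 457811078651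 / 1000000000000 * (u ^ 12 * v ^ 0) := by
    rw [hu, hv]
    unfold glB4
    ring
  rw [e]
  positivity

theorem glB4_nn1 (z : ℝ) (h1 : 0 ≤ z) (h2 : z ≤ 1 / 4) : 0 ≤ glB4 z := by
  obtain ⟨u, hu⟩ : ∃ u : ℝ, u = z - 0 := ⟨_, rfl⟩
  obtain ⟨v, hv⟩ : ∃ v : ℝ, v = 1 / 4 - z := ⟨_, rfl⟩
  have hu0 : 0 ≤ u := by rw [hu]; linarith
  have hv0 : 0 ≤ v := by rw [hv]; linarith
  have e : glB4 z = 1875194178154496 / 244140625 * (u ^ 0 * v ^ 12) + 19312212481494016 / 244140625 * (u ^ 1 * v ^ 11) + 89768112018719744 / 244140625 * (u ^ 2 * v ^ 10) + 248501533201164032 / 244140625 * (u ^ 3 * v ^ 9) + 455098972632300448 / 244140625 * (u ^ 4 * v ^ 8) + 579008323471432812 / 244140625 * (u ^ 5 * v ^ 7) + 522681966834669618 / 244140625 * (u ^ 6 * v ^ 6) + 1342970934970862213 / 976562500 * (u ^ 7 * v ^ 5) + 2424734721338673569 / 3906250000 * (u ^ 8 * v ^ 4) + 299002454166262563 / 1562500000 * (u ^ 9 * v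 ^ 3) + 48037376930295057 / 1250000000 * (u ^ 10 * v ^ 2) + 9321214968220751 / 2000000000 * (u ^ 11 * v ^ 1) + 227128279277217 / 800000000 * (u ^ 12 * v ^ 0) := by
    rw [hu, hv]
    unfold glB4
    ring
  rw [e]
  positivity

theorem glB4_nn2 (z : ℝ) (h1 : 1 / 4 ≤ z) (h2 : z ≤ 1 / 2) : 0 ≤ glB4 z := by
  obtain ⟨u, hu⟩ : ∃ u : ℝ, u = z - 1 / 4 := ⟨_, rfl⟩
  obtain ⟨v, hv⟩ : ∃ v : ℝ, v = 1 / 2 - z := ⟨_, rfl⟩
  have hu0 : 0 ≤ u := by rw [hu]; linarith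
  have hv0 : 0 ≤ v := by rw [hv]; linarith
  have e : glB4 z = 227128279277217 / 800000000 * (u ^ 0 * v ^ 12) + 4306481788412269 / 2000000000 * (u ^ 1 * v ^ 11) + 54244345276446973 / 5000000000 * (u ^ 2 * v ^ 10) + 644812851548845771 / 12500000000 * (u ^ 3 * v ^ 9) + 1485735784754660593 / 7812500000 * (u ^ 4 * v ^ 8) + 3754428586690171269 / 7812500000 * (u ^ 5 * v ^ 7) + 3228371103617085973 / 3906250000 * (u ^ 6 * v ^ 6) + 1915794469587930319 / 1953125000 * (u ^ 7 * v ^ 5) + 1575430850475464729 / 1953125000 * (u ^ 8 * v ^ 4) + 88415286438800777 / 195312500 * (u ^ 9 * v ^ 3) + 80975067416439121 / 488281250 * (u ^ 10 * v ^ 2) + 8743108609642363 / 244140625 * (u ^ 11 * v ^ 1) + 845322281072068 / 244140625 * (u ^ 12 * v ^ 0) := by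
    rw [hu, hv]
    unfold glB4
    ring
  rw [e]
  positivity

theorem glB4_nn3 (z : ℝ) (h1 : 1 / 2 ≤ z) (h2 : z ≤ 1) : 0 ≤ glB4 z := by
  obtain ⟨u, hu⟩ : ∃ u : ℝ, u = z - 1 / 2 := ⟨_, rfl⟩
  obtain ⟨v, hv⟩ : ∃ v : ℝ, v = 1 - z := ⟨_, rfl⟩
  have hu0 : 0 ≤ u := by rw [hu]; linarith
  have hv0 : 0 ≤ v := by rw [hv]; linarith
  have e : glB4 z = 211330570268017 / 250000000000 * (u ^ 0 * v ^ 12) + 6472692449654861 / 500000000000 * (u ^ 1 * v ^ 11) + 21756600388322669 / 250000000000 * (u ^ 2 * v ^ 10) + 8497200165512101 / 25000000000 * (u ^ 3 * v ^ 9) + 13447470585336247 / 15625000000 * (u ^ 4 * v ^ 8) + 46599074868961417 / 31250000000 * (u ^ 5 * v ^ 7) + 28359993512115031 / 15625000000 * (u ^ 6 * v ^ 6) + 6112179447345213 / 3906250000 * (u ^ 7 * v ^ 5) + 231487404522779 / 244140625 * (u ^ 8 * v ^ 4) + 96103407032972 / 244140625 * (u ^ 9 * v ^ 3) + 25919596384316 / 244140625 * (u ^ 10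 * v ^ 2) + 4072442119376 / 244140625 * (u ^ 11 * v ^ 1) + 281611691904 / 244140625 * (u ^ 12 * v ^ 0) := by
    rw [hu, hv]
    unfold glB4
    ring
  rw [e]
  positivity

theorem glB4_nn4 (z : ℝ) (h1 : 1 ≤ z) (h2 : z ≤ 5 / 4) : 0 ≤ glB4 z := by
  obtain ⟨u, hu⟩ : ∃ u : ℝ, u = z - 1 := ⟨_, rfl⟩
  obtain ⟨v, hv⟩ : ∃ v : ℝ, v = 5 / 4 - z := ⟨_, rfl⟩
  have hu0 : 0 ≤ u := by rw [hu]; linarith
  have hv0 : 0 ≤ v := by rw [hv]; linarith
  have e : glB4 z = 1153481490038784 / 244140625 * (u ^ 0 * v ^ 12) + 12422305360216064 / 244140625 * (u ^ 1 * v ^ 11) + 60217703870345216 / 244140625 * (u ^ 2 * v ^ 10) + 173260331681355776 / 244140625 * (u ^ 3 * v ^ 9) + 65670302481987328 / 48828125 * (u ^ 4 * v ^ 8) + 429716073695267352 / 244140625 * (u ^ 5 * v ^ 7) + 395599673987964499 / 244140625 * (u ^ 6 * v ^ 6) + 1023032051596214123 / 976562500 * (u ^ 7 * v ^ 5) + 909786840876218561 / 1953125000 *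 (u ^ 8 * v ^ 4) + 2129346547643518207 / 15625000000 * (u ^ 9 * v ^ 3) + 1516925086957167851 / 62500000000 * (u ^ 10 * v ^ 2) + 582976918078769587 / 250000000000 * (u ^ 11 * v ^ 1) + 52964035772055593 / 500000000000 * (u ^ 12 * v ^ 0) := by
    rw [hu, hv]
    unfold glB4
    ring
  rw [e]
  positivity

theorem glB4_nn5 (z : ℝ) (h1 : 5 / 4 ≤ z) (h2 : z ≤ 3 / 2) : 0 ≤ glB4 z := by
  obtain ⟨u, hu⟩ : ∃ u : ℝ, u = z - 5 / 4 := ⟨_, rfl⟩
  obtain ⟨v, hv⟩ : ∃ v : ℝ, v = 3 / 2 - z := ⟨_, rfl⟩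
  have hu0 : 0 ≤ u := by rw [hu]; linarith
  have hv0 : 0 ≤ v := by rw [hv]; linarith
  have e : glB4 z = 52964035772055593 / 500000000000 * (u ^ 0 * v ^ 12) + 52591511185897529 / 250000000000 * (u ^ 1 * v ^ 11) + 116730436003539383 / 125000000000 * (u ^ 2 * v ^ 10) + 1409472924089187367 / 62500000000 * (u ^ 3 * v ^ 9) + 2224688894584242397 / 15625000000 * (u ^ 4 * v ^ 8) + 3542727090572139109 / 7812500000 * (u ^ 5 * v ^ 7) + 3457816958080498063 / 3906250000 * (u ^ 6 * v ^ 6) + 2230842154242346271 / 1953125000 * (u ^ 7 * v ^ 5) + 1953373856216819837 / 1953125000 * (u ^ 8 * v ^ 4) + 115392882202477897 / 195312500 * (u ^ 9 * v ^ 3) + 4417678181654387 / 19531250 * (u ^ 10 * v ^ 2) + 99189159084487 / 1953125 * (u ^ 11 * v ^ 1) + 1986347788064 / 390625 * (u ^ 12 * v ^ 0) := by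
    rw [hu, hv]
    unfold glB4
    ring
  rw [e]
  positivity

theorem glB4_nn6 (z : ℝ) (h1 : 3 / 2 ≤ z) (h2 : z ≤ 2) : 0 ≤ glB4 z := by
  obtain ⟨u, hu⟩ : ∃ u : ℝ, u = z - 3 / 2 := ⟨_, rfl⟩
  obtain ⟨v, hv⟩ : ∃ v : ℝ, v = 2 - z := ⟨_, rfl⟩
  have hu0 : 0 ≤ u := by rw [hu]; linarith
  have hv0 : 0 ≤ v := by rw [hv]; linarith
  have e : glB4 z = 62073368377 / 50000000 * (u ^ 0 * v ^ 12) + 79582141841273 / 4000000000 * (u ^ 1 * v ^ 11) + 175006203693077 / 1250000000 * (u ^ 2 * v ^ 10) + 7153077211739191 / 12500000000 * (u ^ 3 * v ^ 9) + 94585054214677999 / 62500000000 * (u ^ 4 * v ^ 8) + 85180989956691791 / 31250000000 * (u ^ 5 * v ^ 7) + 26723398553273417 / 7812500000 * (u ^ 6 * v ^ 6) + 23439664591450489 / 7812500000 * (u ^ 7 * v ^ 5) + 885158298589121 / 488281250 * (u ^ 8 * v ^ 4) + 177752850922189 / 244140625 * (u ^ 9 * v ^ 3) + 88728900455591 / 488281250 * (u ^ 10 * v ^ 2) + 12125668535509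 / 488281250 * (u ^ 11 * v ^ 1) + 340866293857 / 244140625 * (u ^ 12 * v ^ 0) := by
    rw [hu, hv]
    unfold glB4
    ring
  rw [e]
  positivity

theorem glB4_nn7 (z : ℝ) (h1 : 2 ≤ z) (h2 : z ≤ 17 / 8) : 0 ≤ glB4 z := by
  obtain ⟨u, hu⟩ : ∃ u : ℝ, u = z - 2 := ⟨_, rfl⟩
  obtain ⟨v, hv⟩ : ∃ v : ℝ, v = 17 / 8 - z := ⟨_, rfl⟩
  have hu0 : 0 ≤ u := by rw [hu]; linarith
  have hv0 : 0 ≤ v := by rw [hv]; linarith
  have e : glB4 z = 5718787439158362112 / 244140625 * (u ^ 0 * v ^ 12) + 60352441566795661312 / 244140625 * (u ^ 1 * v ^ 11) + 286615614642295144448 / 244140625 * (u ^ 2 * v ^ 10) + 806851870293399568384 / 244140625 * (u ^ 3 * v ^ 9) + 1491813023982472757248 / 244140625 * (u ^ 4 * v ^ 8) + 1894717417258538880512 / 244140625 * (u ^ 5 * v ^ 7) + 1677200092238381760256 / 244140625 * (u ^ 6 * v ^ 6) + 1025914228565756634792 / 244140625 * (u ^ 7 * v ^ 5) + 419330139747879624449 / 244140625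 * (u ^ 8 * v ^ 4) + 17103501594091125341 / 39062500 * (u ^ 9 * v ^ 3) + 385556382391155179 / 6250000 * (u ^ 10 * v ^ 2) + 36080318701904923 / 8000000 * (u ^ 11 * v ^ 1) + 500550100442727 / 1280000 * (u ^ 12 * v ^ 0) := by
    rw [hu, hv]
    unfold glB4
    ring
  rw [e]
  positivity

theorem glB4_nn8 (z : ℝ) (h1 : 17 / 8 ≤ z) (h2 : z ≤ 9 / 4) : 0 ≤ glB4 z := by
  obtain ⟨u, hu⟩ : ∃ u : ℝ, u = z - 17 / 8 := ⟨_, rfl⟩
  obtain ⟨v, hv⟩ : ∃ v : ℝ, v = 9 / 4 - z := ⟨_, rfl⟩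
  have hu0 : 0 ≤ u := by rw [hu]; linarith
  have hv0 : 0 ≤ v := by rw [hv]; linarith
  have e : glB4 z = 500550100442727 / 1280000 * (u ^ 0 * v ^ 12) + 39002196364504127 / 8000000 * (u ^ 1 * v ^ 11) + 3285330148432936707 / 50000000 * (u ^ 2 * v ^ 10) + 614973008311660008213 / 1250000000 * (u ^ 3 * v ^ 9) + 65131490355951704915947 / 31250000000 * (u ^ 4 * v ^ 8) + 21672144775954516988747 / 3906250000 * (u ^ 5 * v ^ 7) + 4832746364210548417887 / 488281250 * (u ^ 6 * v ^ 6) + 11930747375606119999461 / 976562500 * (u ^ 7 * v ^ 5) + 20541987877785770301389 / 1953125000 * (u ^ 8 * v ^ 4) + 3038017862997348935011 / 488281250 * (u ^ 9 * v ^ 3) + 118060095453397924282 / 48828125 * (u ^ 10 * v ^ 2) + 27197987948193065162 / 48828125 * (u ^ 11 * v ^ 1) + 14097895927067121794 / 244140625 * (u ^ 12 * v ^ 0) := by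
    rw [hu, hv]
    unfold glB4
    ring
  rw [e]
  positivity

theorem glB4_nn9 (z : ℝ) (h1 : 9 / 4 ≤ z) (h2 : z ≤ 5 / 2) : 0 ≤ glB4 z := by
  obtain ⟨u, hu⟩ : ∃ u : ℝ, u = z - 9 / 4 := ⟨_, rfl⟩
  obtain ⟨v, hv⟩ : ∃ v : ℝ, v = 5 / 2 - z := ⟨_, rfl⟩
  have hu0 : 0 ≤ u := by rw [hu]; linarith
  have hv0 : 0 ≤ v := by rw [hv]; linarith
  have e : glB4 z = 7048947963533560897 / 500000000000 * (u ^ 0 * v ^ 12) + 58886093473121433241 / 250000000000 * (u ^ 1 * v ^ 11) + 220002008355264665977 / 125000000000 * (u ^ 2 * v ^ 10) + 487215455204524358351 / 62500000000 * (u ^ 3 * v ^ 9) + 17851245178231435679 / 781250000 * (u ^ 4 * v ^ 8) + 365585578532132518389 / 7812500000 * (u ^ 5 * v ^ 7) + 268686679926720159609 / 3906250000 * (u ^ 6 * v ^ 6) + 143022265368122914711 / 1953125000 * (u ^ 7 * v ^ 5) + 109582245409824004561 / 1953125000 * (u ^ 8 * v ^ 4) + 29493333214090492077 / 976562500 * (u ^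 9 * v ^ 3) + 5297498018756679237 / 488281250 * (u ^ 10 * v ^ 2) + 570460422616100563 / 244140625 * (u ^ 11 * v ^ 1) + 55722957912825036 / 244140625 * (u ^ 12 * v ^ 0) := by
    rw [hu, hv]
    unfold glB4
    ring
  rw [e]
  positivity

theorem glB4_nn10 (z : ℝ) (h1 : 5 / 2 ≤ z) (h2 : z ≤ 3) : 0 ≤ glB4 z := by
  obtain ⟨u, hu⟩ : ∃ u : ℝ, u = z - 5 / 2 := ⟨_, rfl⟩
  obtain ⟨v, hv⟩ : ∃ v : ℝ, v = 3 - z := ⟨_, rfl⟩
  have hu0 : 0 ≤ u := by rw [hu]; linarith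
  have hv0 : 0 ≤ v := by rw [hv]; linarith
  have e : glB4 z = 13930739478206259 / 250000000000 * (u ^ 0 * v ^ 12) + 86510563962950017 / 100000000000 * (u ^ 1 * v ^ 11) + 60440451450687927 / 10000000000 * (u ^ 2 * v ^ 10) + 3137720788682615817 / 125000000000 * (u ^ 3 * v ^ 9) + 2153360139279231907 / 31250000000 * (u ^ 4 * v ^ 8) + 4105292250800693137 / 31250000000 * (u ^ 5 * v ^ 7) + 2774893777072047201 / 15625000000 * (u ^ 6 * v ^ 6) + 665372612797282221 / 3906250000 * (u ^ 7 * v ^ 5) + 55493744967847001 / 488281250 * (u ^ 8 * v ^ 4) + 2454210537314632 / 48828125 * (u ^ 9 * v ^ 3) + 3238708592580224 / 244140625 * (u ^ 10 * v ^ 2) + 15465123256576 / 9765625 * (u ^ 11 * v ^ 1) + 9490700288 / 244140625 * (u ^ 12 * v ^ 0) := by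
    rw [hu, hv]
    unfold glB4
    ring
  rw [e]
  positivity

theorem glB4_nn (z : ℝ) (h1 : -1 ≤ z) (h2 : z ≤ 3) : 0 ≤ glB4 z := by
  rcases le_total z (0) with h | h
  · exact glB4_nn0 z h1 h
  have hl := h
  clear h
  rcases le_total z (1 / 4) with h | h
  · exact glB4_nn1 z hl h
  have hl := h
  clear h
  rcases le_total z (1 / 2) with h | h
  · exact glB4_nn2 z hl h
  have hl := h
  clear h
  rcases le_total z (1) with h | h
  · exact glB4_nn3 z hl h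
  have hl := h
  clear h
  rcases le_total z (5 / 4) with h | h
  · exact glB4_nn4 z hl h
  have hl := h
  clear h
  rcases le_total z (3 / 2) with h | h
  · exact glB4_nn5 z hl h
  have hl := h
  clear h
  rcases le_total z (2) with h | h
  · exact glB4_nn6 z hl h
  have hl := h
  clear h
  rcases le_total z (17 / 8) with h | h
  · exact glB4_nn7 z hl h
  have hl := h
  clear h
  rcases le_total z (9 / 4) with h | h
  · exact glB4_nn8 z hl h
  have hl := h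
  clear h
  rcases le_total z (5 / 2) with h | h
  · exact glB4_nn9 z hl h
  have hl := h
  clear h
  exact glB4_nn10 z hl h2

theorem lB4_le (Z : ℝ) (h0 : 0 < Z) (h4 : Z ≤ 4) : lB4 (Z - 1) * Z ^ 4 ≤ 1 := by
  have h := lB4_split (Z - 1)
  have hg := glB4_nn (Z - 1) (by linarith) (by linarith)
  have hz : 0 ≤ (Z - 1) ^ 2 := Even.pow_nonneg (by decide) _
  have e : 1 + (Z - 1) = Z := by ring
  rw [e] at h
  have := mul_nonneg hz hg
  linarith

end Vale.Agent.P154.T4M
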